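import Vale.Agent.P065.Tower
import Vale.Agent.P065.Points
import Vale.Agent.P065.Growth

namespace Vale.Agent.Results.P065.Lower

open Vale.Agent.P065

theorem result : ∃ (C : ℝ) (n₀ : ℕ), 0 < C ∧
    (∀ n : ℕ, n₀ ≤ n → Even n → ∃ P : Finset (ℝ × ℝ), P.card = n ∧ GenPos P ∧
      (n : ℝ) ^ (1 + Real.exp (-C * Real.sqrt (Real.log (Real.log n)))) ≤ halvingLines P) ∧
    (∀ n k : ℕ, n₀ ≤ k → 2 * k ≤ n → ∃ P : Finset (ℝ × ℝ), P.card = n ∧ GenPos P ∧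
      n * (k : ℝ) ^ Real.exp (-C * Real.sqrt (Real.log (Real.log k))) ≤ kSets P k) := by
  obtain ⟨C, hC⟩ := many_slots
  obtain ⟨C', k₀, h0, hk⟩ := growth C
  refine ⟨C', 2 * k₀ + 2, h0, ?_, ?_⟩
  · rintro n hn ⟨k, rfl⟩
    obtain ⟨t, t1, t2, t3, -⟩ := hk k (by omega)
    obtain ⟨ι, W, _, _, G, β, X, hQ, h1, h2, h3⟩ := hC t (k + k) k t1 t2 (by omega)
    obtain ⟨P, p1, p2, -, p4⟩ := exists_points hQ h1 h2
    refine ⟨P, p1, p2, ?_⟩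
    have h4 : ((k + k : ℕ) : ℝ) * 2 ^ 2 ^ (t ^ 2) ≤ 8 * (halvingLines P : ℝ) := by
      exact_mod_cast h3.trans (Nat.mul_le_mul_left 8 (p4 (by omega)))
    have h5 : (0 : ℝ) < ((k + k : ℕ) : ℝ) := by exact_mod_cast (by omega : 0 < k + k)
    rw [← two_mul] at h4 h5 ⊢
    rw [Real.rpow_add h5, Real.rpow_one]
    nlinarith [mul_le_mul_of_nonneg_left t3 h5.le]
  · intro n k hk0 hn
    obtain ⟨t, t1, t2, -, t4⟩ := hk k (by omega)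
    obtain ⟨ι, W, _, _, G, β, X, hQ, h1, h2, h3⟩ := hC t n k t1 t2 hn
    obtain ⟨P, p1, p2, p3, -⟩ := exists_points hQ h1 h2
    refine ⟨P, p1, p2, ?_⟩
    have h4 : (n : ℝ) * 2 ^ 2 ^ (t ^ 2) ≤ 8 * (kSets P k : ℝ) := by
      exact_mod_cast h3.trans (Nat.mul_le_mul_left 8 p3)
    have h5 : (0 : ℝ) ≤ n := Nat.cast_nonneg n
    nlinarith [mul_le_mul_of_nonneg_left t4 h5]

end Vale.Agent.Results.P065.Lower
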