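import Vale.Agent.P065U.Main
import Vale.Agent.P065U.Side

namespace Vale.Agent.Results.P065.PowerSaving

open Vale.Agent.P065

theorem result : ∃ ε C : ℝ, 0 < ε ∧ 0 < C ∧
    (∀ P : Finset (ℝ × ℝ), GenPos P → Even P.card →
      (halvingLines P : ℝ) ≤ C * (P.card : ℝ) ^ (4 / 3 - ε)) ∧
    (∀ (P : Finset (ℝ × ℝ)) (k : ℕ), GenPos P → 1 ≤ k → 2 * k ≤ P.card →
      (kSets P k : ℝ) ≤ C * P.card * ((k : ℝ) + 1) ^ (1 / 3 - ε)) :=
  Vale.Agent.P065U.main Vale.Agent.P065U.side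

end Vale.Agent.Results.P065.PowerSaving
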